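import Mathlib

/-!
# P125 (Markov type and superreflexivity): Markov type `p` forces Rademacher type `p`

If a real normed space has Markov type `p ≥ 1` with constant `K`, then it has Rademacher type `p`
with constant `4 K` (in the `p`-th moment form).  The chain used is the lazy random walk on the
discrete cube `{-1,1}^n`, run for `n` steps.
-/

namespace Vale.Agent.Results.P125.RademacherType

open Finset

/-- A finite stationary reversible Markov chain on `S`: a probability vector `π` and a stochastic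
matrix `P` with `π i * P i j = π j * P j i`. -/
structure RevChain (S : Type) [Fintype S] where
  π : S → ℝ
  P : Matrix S S ℝ
  π_nonneg : ∀ i, 0 ≤ π i
  π_sum : ∑ i, π i = 1
  P_nonneg : ∀ i j, 0 ≤ P i j
  P_sum : ∀ i, ∑ j, P i j = 1
  reversible : ∀ i j, π i * P i j = π j * P j i

/-- Markov type `p` with constant `K` (Ball): for every finite stationary reversible chain,
every `f : S → X` and every `t ≥ 1`,
`E ‖f(Z_t) - f(Z_0)‖^p ≤ K^p t E ‖f(Z_1) - f(Z_0)‖^p`. -/
def HasMarkovType (X : Type*) [NormedAddCommGroup X] [NormedSpace ℝ X] (p K : ℝ) : Prop :=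
  ∀ (S : Type) [Fintype S] [DecidableEq S] (c : RevChain S) (f : S → X) (t : ℕ), 1 ≤ t →
    ∑ i, ∑ j, c.π i * (c.P ^ t) i j * ‖f j - f i‖ ^ p ≤
      K ^ p * t * ∑ i, ∑ j, c.π i * c.P i j * ‖f j - f i‖ ^ p

/-- The sign `±1` attached to a Boolean. -/
def sgn (b : Bool) : ℝ := if b then 1 else -1

/-- Rademacher type `p` with constant `T`, in `p`-th moment form:
`E ‖∑ ε_i x_i‖^p ≤ T^p ∑ ‖x_i‖^p` for all finite families, the expectation over uniform signs. -/
def HasRademacherType (X : Type*) [NormedAddCommGroup X] [NormedSpace ℝ X] (p T : ℝ) : Prop :=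
  ∀ (n : ℕ) (x : Fin n → X),
    (∑ ε : Fin n → Bool, ‖∑ i, sgn (ε i) • x i‖ ^ p) / 2 ^ n ≤ T ^ p * ∑ i, ‖x i‖ ^ p

section general

variable {S : Type} [Fintype S] [DecidableEq S]

lemma pow_entry_nonneg (c : RevChain S) (t : ℕ) : ∀ i j, 0 ≤ (c.P ^ t) i j := by
  induction t with
  | zero =>
    intro i j
    rw [pow_zero, Matrix.one_apply]
    split_ifs <;> norm_num
  | succ t ih =>
    intro i j
    rw [pow_succ, Matrix.mul_apply]
    exact Finset.sum_nonneg fun k _ => mul_nonneg (ih i k) (c.P_nonneg k j)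

lemma pow_row_sum (c : RevChain S) (t : ℕ) : ∀ i, ∑ j, (c.P ^ t) i j = 1 := by
  induction t with
  | zero =>
    intro i
    simp [Matrix.one_apply]
  | succ t ih =>
    intro i
    simp only [pow_succ, Matrix.mul_apply]
    rw [Finset.sum_comm]
    simp only [← Finset.mul_sum, c.P_sum, mul_one]
    exact ih i

variable {X : Type*} [NormedAddCommGroup X] [NormedSpace ℝ X]

lemma pow_act (c : RevChain S) (f : S → X) (lam : ℝ)
    (h : ∀ i, ∑ j, c.P i j • f j = lam • f i) (t : ℕ) :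
    ∀ i, ∑ j, (c.P ^ t) i j • f j = lam ^ t • f i := by
  induction t with
  | zero =>
    intro i
    simp [Matrix.one_apply, ite_smul]
  | succ t ih =>
    intro i
    simp only [pow_succ, Matrix.mul_apply, Finset.sum_smul]
    rw [Finset.sum_comm]
    simp only [mul_smul, ← Finset.smul_sum, h]
    simp only [smul_comm _ lam, ← Finset.smul_sum, ih i]

omit [DecidableEq S] in
/-- Jensen for `‖·‖^p` with probability weights. -/
lemma jensen (p : ℝ) (hp : 1 ≤ p) (w : S → ℝ) (hw : ∀ j, 0 ≤ w j) (hw1 : ∑ j, w j = 1)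
    (v : S → X) (a : X) :
    ‖a - ∑ j, w j • v j‖ ^ p ≤ ∑ j, w j * ‖v j - a‖ ^ p := by
  have h1 : a - ∑ j, w j • v j = ∑ j, w j • (a - v j) := by
    simp only [smul_sub, Finset.sum_sub_distrib, ← Finset.sum_smul, hw1, one_smul]
  have h2 : ‖a - ∑ j, w j • v j‖ ≤ ∑ j, w j • ‖v j - a‖ := by
    rw [h1]
    refine (norm_sum_le _ _).trans (le_of_eq ?_)
    refine Finset.sum_congr rfl fun j _ => ?_
    rw [norm_smul, Real.norm_eq_abs, abs_of_nonneg (hw j), norm_sub_rev, smul_eq_mul]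
  have h3 : (∑ j, w j • ‖v j - a‖) ^ p ≤ ∑ j, w j • ‖v j - a‖ ^ p :=
    (convexOn_rpow hp).map_sum_le (fun j _ => hw j) hw1 (fun j _ => norm_nonneg _)
  calc ‖a - ∑ j, w j • v j‖ ^ p ≤ (∑ j, w j • ‖v j - a‖) ^ p :=
        Real.rpow_le_rpow (norm_nonneg _) h2 (by linarith)
    _ ≤ ∑ j, w j • ‖v j - a‖ ^ p := h3
    _ = ∑ j, w j * ‖v j - a‖ ^ p := by simp only [smul_eq_mul]

end general

section cube

variable {n : ℕ}

/-- Flip the `k`-th coordinate. -/
def flip (k : Fin n) (ε : Fin n → Bool) : Fin n → Bool := Function.update ε k (!ε k)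

lemma flip_flip (k : Fin n) (ε : Fin n → Bool) : flip k (flip k ε) = ε := by
  funext i
  unfold flip
  by_cases h : i = k
  · subst h
    simp
  · simp [Function.update_of_ne h]

lemma eq_flip_comm (k : Fin n) (ε ε' : Fin n → Bool) : ε' = flip k ε ↔ ε = flip k ε' := by
  constructor
  · intro h
    rw [h, flip_flip]
  · intro h
    rw [h, flip_flip]

/-- Transition matrix of the lazy random walk on the cube. -/
noncomputable def cubeP (n : ℕ) : Matrix (Fin n → Bool) (Fin n → Bool) ℝ := fun ε ε' =>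
  (1 / 2 : ℝ) * (if ε' = ε then 1 else 0) +
    (1 / (2 * (n : ℝ))) * ∑ k : Fin n, (if ε' = flip k ε then 1 else 0)

lemma cubeP_act {E : Type*} [AddCommGroup E] [Module ℝ E] (g : (Fin n → Bool) → E)
    (ε : Fin n → Bool) :
    ∑ ε', cubeP n ε ε' • g ε' =
      (1 / 2 : ℝ) • g ε + (1 / (2 * (n : ℝ))) • ∑ k : Fin n, g (flip k ε) := by
  unfold cubeP
  simp only [add_smul, Finset.sum_add_distrib]
  congr 1
  · simp only [mul_smul, ← Finset.smul_sum, ite_smul, one_smul, zero_smul]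
    rw [Finset.sum_ite_eq' Finset.univ ε g]
    simp
  · simp only [mul_smul, ← Finset.smul_sum, Finset.sum_smul, ite_smul, one_smul, zero_smul]
    rw [Finset.sum_comm]
    congr 1
    refine Finset.sum_congr rfl fun k _ => ?_
    rw [Finset.sum_ite_eq' Finset.univ (flip k ε) g]
    simp

/-- The lazy random walk on the cube as a stationary reversible chain. -/
noncomputable def cubeChain (n : ℕ) (hn : 1 ≤ n) : RevChain (Fin n → Bool) where
  π := fun _ => 1 / 2 ^ n
  P := cubeP n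
  π_nonneg := fun _ => by positivity
  π_sum := by
    rw [Finset.sum_const, Finset.card_univ, Fintype.card_fun, Fintype.card_bool, Fintype.card_fin]
    simp
  P_nonneg := fun ε ε' => by
    unfold cubeP
    have h1 : (0 : ℝ) ≤ (if ε' = ε then 1 else 0) := by split_ifs <;> norm_num
    have h2 : (0 : ℝ) ≤ ∑ k : Fin n, (if ε' = flip k ε then (1 : ℝ) else 0) :=
      Finset.sum_nonneg fun k _ => by split_ifs <;> norm_num
    positivity
  P_sum := fun ε => by
    have h := cubeP_act (n := n) (fun _ => (1 : ℝ)) ε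
    simp only [smul_eq_mul, mul_one] at h
    rw [h, Finset.sum_const, Finset.card_univ, Fintype.card_fin]
    have hn' : (0 : ℝ) < n := by exact_mod_cast hn
    simp only [nsmul_eq_mul, mul_one]
    field_simp
    ring
  reversible := fun ε ε' => by
    have : cubeP n ε ε' = cubeP n ε' ε := by
      unfold cubeP
      have h1 : (if ε' = ε then (1 : ℝ) else 0) = (if ε = ε' then 1 else 0) := by
        simp only [eq_comm]
      have h2 : ∀ k : Fin n, (if ε' = flip k ε then (1 : ℝ) else 0) =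
          (if ε = flip k ε' then 1 else 0) := by
        intro k
        simp only [eq_flip_comm k ε ε']
      rw [h1]
      simp only [h2]
    rw [this]

variable {X : Type*} [NormedAddCommGroup X] [NormedSpace ℝ X]

/-- The Rademacher sum as a function on the cube. -/
def radSum (x : Fin n → X) (ε : Fin n → Bool) : X := ∑ i, sgn (ε i) • x i

lemma sgn_not (b : Bool) : sgn (!b) = - sgn b := by
  cases b <;> simp [sgn]

lemma abs_sgn (b : Bool) : |sgn b| = 1 := by
  cases b <;> simp [sgn]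

lemma radSum_flip (x : Fin n → X) (k : Fin n) (ε : Fin n → Bool) :
    radSum x (flip k ε) = radSum x ε - (2 * sgn (ε k)) • x k := by
  unfold radSum
  rw [← Finset.add_sum_erase Finset.univ _ (Finset.mem_univ k),
    ← Finset.add_sum_erase Finset.univ (fun i => sgn (ε i) • x i) (Finset.mem_univ k)]
  have h1 : ∑ i ∈ Finset.univ.erase k, sgn (flip k ε i) • x i =
      ∑ i ∈ Finset.univ.erase k, sgn (ε i) • x i := by
    refine Finset.sum_congr rfl fun i hi => ?_
    have hik : i ≠ k := Finset.ne_of_mem_erase hi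
    unfold flip
    rw [Function.update_of_ne hik]
  rw [h1]
  have h2 : flip k ε k = !ε k := by
    unfold flip
    simp
  rw [h2, sgn_not]
  have : (2 * sgn (ε k)) • x k = sgn (ε k) • x k + sgn (ε k) • x k := by
    rw [two_mul, add_smul]
  rw [this, neg_smul]
  abel

lemma radSum_eigen (hn : 1 ≤ n) (x : Fin n → X) (ε : Fin n → Bool) :
    ∑ ε', cubeP n ε ε' • radSum x ε' = (1 - 1 / (n : ℝ)) • radSum x ε := by
  rw [cubeP_act]
  have hn' : (0 : ℝ) < n := by exact_mod_cast hn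
  have h1 : ∑ k : Fin n, radSum x (flip k ε) = ((n : ℝ) - 2) • radSum x ε := by
    simp only [radSum_flip, Finset.sum_sub_distrib, Finset.sum_const, Finset.card_univ,
      Fintype.card_fin, mul_smul, ← Finset.smul_sum]
    have : ∑ i, sgn (ε i) • x i = radSum x ε := rfl
    rw [this, sub_smul, ← Nat.cast_smul_eq_nsmul ℝ]
  rw [h1, smul_smul, ← add_smul]
  congr 1
  field_simp
  ring

lemma one_step (hn : 1 ≤ n) (p : ℝ) (hp : 1 ≤ p) (x : Fin n → X) :
    ∑ ε, ∑ ε', (cubeChain n hn).π ε * (cubeChain n hn).P ε ε' * ‖radSum x ε' - radSum x ε‖ ^ p =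
      (2 ^ p / (2 * (n : ℝ))) * ∑ k, ‖x k‖ ^ p := by
  have hp0 : p ≠ 0 := by linarith
  have hrow : ∀ ε : Fin n → Bool,
      ∑ ε', (cubeChain n hn).π ε * (cubeChain n hn).P ε ε' * ‖radSum x ε' - radSum x ε‖ ^ p =
        (1 / 2 ^ n) * ((2 ^ p / (2 * (n : ℝ))) * ∑ k, ‖x k‖ ^ p) := by
    intro ε
    have h := cubeP_act (n := n) (fun ε' => ‖radSum x ε' - radSum x ε‖ ^ p) ε
    simp only [smul_eq_mul] at h
    have hP : (cubeChain n hn).P = cubeP n := rfl
    have hπ : (cubeChain n hn).π ε = 1 / 2 ^ n := rfl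
    simp only [hP, hπ, mul_assoc, ← Finset.mul_sum]
    rw [h, sub_self, norm_zero, Real.zero_rpow hp0, mul_zero, zero_add]
    have hk : ∀ k : Fin n, ‖radSum x (flip k ε) - radSum x ε‖ ^ p = 2 ^ p * ‖x k‖ ^ p := by
      intro k
      rw [radSum_flip, sub_sub_cancel_left, norm_neg, norm_smul, Real.norm_eq_abs, abs_mul,
        abs_sgn, mul_one, abs_of_pos (by norm_num : (0 : ℝ) < 2),
        Real.mul_rpow (by norm_num) (norm_nonneg _)]
    simp only [hk, ← Finset.mul_sum]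
    ring
  simp only [hrow]
  rw [Finset.sum_const, Finset.card_univ, Fintype.card_fun, Fintype.card_bool, Fintype.card_fin]
  simp only [nsmul_eq_mul, Nat.cast_pow, Nat.cast_ofNat]
  field_simp

lemma pow_half (hn : 1 ≤ n) : (1 - 1 / (n : ℝ)) ^ n ≤ 1 / 2 := by
  have hn' : (0 : ℝ) < n := by exact_mod_cast hn
  have h0 : (0 : ℝ) ≤ 1 - 1 / (n : ℝ) := by
    rw [sub_nonneg, div_le_one hn']
    exact_mod_cast hn
  have h1 : 1 - 1 / (n : ℝ) ≤ Real.exp (-(1 / (n : ℝ))) := by
    have := Real.add_one_le_exp (-(1 / (n : ℝ)))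
    linarith
  have h2 : (1 - 1 / (n : ℝ)) ^ n ≤ Real.exp (-(1 / (n : ℝ))) ^ n :=
    pow_le_pow_left₀ h0 h1 n
  have h3 : Real.exp (-(1 / (n : ℝ))) ^ n = Real.exp (-1) := by
    rw [← Real.exp_nat_mul]
    congr 1
    field_simp
  have h4 : Real.exp (-1) ≤ 1 / 2 := by
    rw [Real.exp_neg, inv_eq_one_div]
    have := Real.add_one_le_exp (1 : ℝ)
    exact one_div_le_one_div_of_le (by norm_num) (by linarith)
  linarith

lemma n_step (hn : 1 ≤ n) (p : ℝ) (hp : 1 ≤ p) (x : Fin n → X) :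
    (1 / 2 : ℝ) ^ p * ((∑ ε : Fin n → Bool, ‖radSum x ε‖ ^ p) / 2 ^ n) ≤
      ∑ ε, ∑ ε', (cubeChain n hn).π ε * ((cubeChain n hn).P ^ n) ε ε' *
        ‖radSum x ε' - radSum x ε‖ ^ p := by
  have hp0 : (0 : ℝ) ≤ p := by linarith
  set c := cubeChain n hn with hc
  have hlam0 : (0 : ℝ) ≤ (1 - 1 / (n : ℝ)) ^ n := by
    have hn' : (0 : ℝ) < n := by exact_mod_cast hn
    have h0 : (0 : ℝ) ≤ 1 - 1 / (n : ℝ) := by
      rw [sub_nonneg, div_le_one hn']
      exact_mod_cast hn
    exact pow_nonneg h0 n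
  have hlam := pow_half hn
  have hrow : ∀ ε : Fin n → Bool,
      (1 / 2 ^ n) * ((1 / 2 : ℝ) ^ p * ‖radSum x ε‖ ^ p) ≤
        ∑ ε', c.π ε * (c.P ^ n) ε ε' * ‖radSum x ε' - radSum x ε‖ ^ p := by
    intro ε
    have hJ := jensen p hp (fun ε' => (c.P ^ n) ε ε') (fun ε' => pow_entry_nonneg c n ε ε')
      (pow_row_sum c n ε) (radSum x) (radSum x ε)
    have hact := pow_act c (radSum x) (1 - 1 / (n : ℝ)) (fun i => radSum_eigen hn x i) n ε
    rw [hact] at hJ
    have heq : radSum x ε - (1 - 1 / (n : ℝ)) ^ n • radSum x ε =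
        (1 - (1 - 1 / (n : ℝ)) ^ n) • radSum x ε := by
      rw [sub_smul, one_smul]
    rw [heq, norm_smul, Real.norm_eq_abs, abs_of_nonneg (by linarith),
      Real.mul_rpow (by linarith) (norm_nonneg _)] at hJ
    have hge : (1 / 2 : ℝ) ^ p ≤ (1 - (1 - 1 / (n : ℝ)) ^ n) ^ p :=
      Real.rpow_le_rpow (by norm_num) (by linarith) hp0
    have hnn : (0 : ℝ) ≤ ‖radSum x ε‖ ^ p := Real.rpow_nonneg (norm_nonneg _) p
    have hπ : c.π ε = 1 / 2 ^ n := rfl
    simp only [hπ, mul_assoc, ← Finset.mul_sum]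
    have hpos : (0 : ℝ) ≤ 1 / 2 ^ n := by positivity
    exact mul_le_mul_of_nonneg_left ((mul_le_mul_of_nonneg_right hge hnn).trans hJ) hpos
  calc (1 / 2 : ℝ) ^ p * ((∑ ε : Fin n → Bool, ‖radSum x ε‖ ^ p) / 2 ^ n)
      = ∑ ε : Fin n → Bool, (1 / 2 ^ n) * ((1 / 2 : ℝ) ^ p * ‖radSum x ε‖ ^ p) := by
        rw [Finset.sum_div, Finset.mul_sum]
        refine Finset.sum_congr rfl fun ε _ => ?_
        ring
    _ ≤ _ := Finset.sum_le_sum fun ε _ => hrow ε

end cube

/-- **Markov type `p` implies Rademacher type `p`.** If a real normed space `X` has Markov type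
`p ≥ 1` with constant `K ≥ 0`, then `E ‖∑ ε_i x_i‖^p ≤ (4K)^p ∑ ‖x_i‖^p` for all finite families
in `X`, i.e. `X` has Rademacher type `p` with constant `4K`. -/
theorem result (X : Type*) [NormedAddCommGroup X] [NormedSpace ℝ X] (p K : ℝ) (hp : 1 ≤ p)
    (hK : 0 ≤ K) (hX : HasMarkovType X p K) : HasRademacherType X p (4 * K) := by
  intro n x
  have hp0 : (0 : ℝ) ≤ p := by linarith
  have hB : 0 ≤ ∑ i, ‖x i‖ ^ p := Finset.sum_nonneg fun i _ => Real.rpow_nonneg (norm_nonneg _) p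
  rcases Nat.eq_zero_or_pos n with h0 | hn
  · subst h0
    have hp' : p ≠ 0 := by linarith
    simp [Real.zero_rpow hp']
  · have hn1 : 1 ≤ n := hn
    have hn' : (0 : ℝ) < n := by exact_mod_cast hn
    have hM := hX (Fin n → Bool) (cubeChain n hn1) (radSum x) n hn1
    rw [one_step hn1 p hp x] at hM
    have hL := n_step hn1 p hp x
    have h1 : (1 / 2 : ℝ) ^ p * ((∑ ε : Fin n → Bool, ‖radSum x ε‖ ^ p) / 2 ^ n) ≤
        K ^ p * n * ((2 ^ p / (2 * (n : ℝ))) * ∑ k, ‖x k‖ ^ p) := hL.trans hM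
    have h2 : K ^ p * n * ((2 ^ p / (2 * (n : ℝ))) * ∑ k, ‖x k‖ ^ p) =
        K ^ p * 2 ^ p / 2 * ∑ k, ‖x k‖ ^ p := by
      field_simp
    rw [h2] at h1
    have hhalf : (1 / 2 : ℝ) ^ p * 2 ^ p = 1 := by
      rw [← Real.mul_rpow (by norm_num) (by norm_num)]
      norm_num
    have h2p : (0 : ℝ) < 2 ^ p := Real.rpow_pos_of_pos (by norm_num) p
    have hKp : (0 : ℝ) ≤ K ^ p := Real.rpow_nonneg hK p
    have h4 : (4 * K) ^ p = 2 ^ p * 2 ^ p * K ^ p := by
      rw [Real.mul_rpow (by norm_num) hK]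
      have : (4 : ℝ) = 2 * 2 := by norm_num
      rw [this, Real.mul_rpow (by norm_num) (by norm_num)]
    have hA : (∑ ε : Fin n → Bool, ‖radSum x ε‖ ^ p) / 2 ^ n =
        2 ^ p * ((1 / 2 : ℝ) ^ p * ((∑ ε : Fin n → Bool, ‖radSum x ε‖ ^ p) / 2 ^ n)) := by
      rw [← mul_assoc, mul_comm (2 ^ p : ℝ), hhalf, one_mul]
    show (∑ ε : Fin n → Bool, ‖radSum x ε‖ ^ p) / 2 ^ n ≤ (4 * K) ^ p * ∑ i, ‖x i‖ ^ p
    rw [hA, h4]
    have h5 := mul_le_mul_of_nonneg_left h1 h2p.le
    have h6 : 2 ^ p * (K ^ p * 2 ^ p / 2 * ∑ k, ‖x k‖ ^ p) ≤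
        2 ^ p * 2 ^ p * K ^ p * ∑ i, ‖x i‖ ^ p := by
      have : 2 ^ p * (K ^ p * 2 ^ p / 2 * ∑ k, ‖x k‖ ^ p) =
          (2 ^ p * 2 ^ p * K ^ p * ∑ i, ‖x i‖ ^ p) / 2 := by ring
      rw [this]
      have hnn : 0 ≤ 2 ^ p * 2 ^ p * K ^ p * ∑ i, ‖x i‖ ^ p := by positivity
      linarith
    exact h5.trans h6

end Vale.Agent.Results.P125.RademacherType
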